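import Mathlib
import Crest.Prelude.Def_PolyominoGame

/-! Game semantics and a reflective certificate checker for the Snaky achievement game. -/

set_option autoImplicit false
set_option linter.unnecessarySeqFocus false

namespace Crest.Agent.R35

open Crest.CombinatoricsR.PolyominoGame

abbrev Cell := ℤ × ℤ

/-- `W n M B`: Maker (to move, owning `M`, Breaker owning `B`) can make `n` further legal claims,
whatever legal replies are made, and own a copy at the end. -/
def W : ℕ → Finset Cell → Finset Cell → Prop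
  | 0, M, _ => ContainsCopy (↑M : Set Cell)
  | n + 1, M, B => ∃ m, m ∉ M ∧ m ∉ B ∧
      ∀ b, b ∉ insert m M → b ∉ B → W n (insert m M) (insert b B)

theorem containsCopy_mono {X Y : Set Cell} (h : X ⊆ Y) (hX : ContainsCopy X) : ContainsCopy Y := by
  obtain ⟨t, e1, e2, h1, h2, h3⟩ := hX
  refine ⟨t, e1, e2, h1, h2, ?_⟩
  rcases h3 with h3 | h3
  · exact Or.inl fun p hp => h (h3 p hp)
  · exact Or.inr fun p hp => h (h3 p hp)

theorem exists_free (M B : Finset Cell) : ∃ m, m ∉ M ∧ m ∉ B := by
  obtain ⟨m, hm⟩ := Infinite.exists_notMem_finset (M ∪ B)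
  exact ⟨m, fun h => hm (Finset.mem_union_left _ h), fun h => hm (Finset.mem_union_right _ h)⟩

theorem W_of_copy : ∀ (n : ℕ) (M B : Finset Cell), ContainsCopy (↑M : Set Cell) → W n M B
  | 0, _, _, h => h
  | n + 1, M, B, h => by
    obtain ⟨m, hM, hB⟩ := exists_free M B
    refine ⟨m, hM, hB, fun b _ _ => W_of_copy n _ _ (containsCopy_mono ?_ h)⟩
    intro x hx
    simp only [Finset.coe_insert, Set.mem_insert_iff]
    exact Or.inr hx

/-- Symmetry transport. -/
theorem W_map (e : Cell ≃ Cell) (he : ∀ X : Set Cell, ContainsCopy X → ContainsCopy (e '' X)) :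
    ∀ (n : ℕ) (M B : Finset Cell), W n M B → W n (M.map e.toEmbedding) (B.map e.toEmbedding)
  | 0, M, _, h => by
    have := he _ h
    simpa [W] using this
  | n + 1, M, B, h => by
    obtain ⟨m, hM, hB, hb⟩ := h
    refine ⟨e m, by simpa using hM, by simpa using hB, fun b h1 h2 => ?_⟩
    obtain ⟨b', rfl⟩ := e.surjective b
    have h1' : b' ∉ insert m M := by
      intro h; apply h1
      rcases Finset.mem_insert.1 h with rfl | h
      · exact Finset.mem_insert_self _ _
      · exact Finset.mem_insert_of_mem (by simpa using h)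
    have h2' : b' ∉ B := by simpa using h2
    have := W_map e he n _ _ (hb b' h1' h2')
    simpa [Finset.map_insert] using this

/-- Decoding a bit position into a cell (board of width 25, centre at bit 312). -/
def dec (i : ℕ) : Cell := (((i % 25 : ℕ) : ℤ) - 12, ((i / 25 : ℕ) : ℤ) - 12)

theorem dec_inj {i j : ℕ} (h : dec i = dec j) : i = j := by
  simp only [dec, Prod.mk.injEq] at h
  omega

/-- every cell marked in `c` lies in `M` -/
def Sub (c : ℕ) (M : Finset Cell) : Prop := ∀ j, c.testBit j = true → dec j ∈ M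
/-- no cell marked in `g` lies in `B` -/
def Avoid (g : ℕ) (B : Finset Cell) : Prop := ∀ j, g.testBit j = true → dec j ∉ B

def Pat (d c g : ℕ) : Prop :=
  ∀ n, d ≤ n → ∀ M B : Finset Cell, Sub c M → Avoid g B → W n M B

def Fam (d c g i : ℕ) : Prop :=
  ∀ n, d ≤ n → ∀ M B : Finset Cell, Sub c M → Avoid g B →
    ∀ b, (∀ j, i.testBit j = true → dec j ≠ b) → W n M (insert b B)

theorem fam_of_pat {d c g : ℕ} (h : Pat d c g) : Fam d c g g := by
  intro n hn M B hM hB b hb
  refine h n hn M _ hM fun j hj hmem => ?_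
  rcases Finset.mem_insert.1 hmem with h | h
  · exact hb j hj h
  · exact hB j hj h

theorem fam_both {d c1 g1 i1 c2 g2 i2 : ℕ} (h1 : Fam d c1 g1 i1) (h2 : Fam d c2 g2 i2) :
    Fam d (Nat.lor c1 c2) (Nat.lor g1 g2) (Nat.land i1 i2) := by
  intro n hn M B hM hB b hb
  have e1 : ∀ a b : ℕ, Nat.lor a b = a ||| b := fun _ _ => rfl
  have e2 : ∀ a b : ℕ, Nat.land a b = a &&& b := fun _ _ => rfl
  rw [e1] at hM hB
  rw [e2] at hb
  by_cases hc : ∀ j, i1.testBit j = true → dec j ≠ b
  · exact h1 n hn M B (fun j hj => hM j (by simp [Nat.testBit_or, hj]))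
      (fun j hj => hB j (by simp [Nat.testBit_or, hj])) b hc
  · push Not at hc
    obtain ⟨j, hj, hjb⟩ := hc
    refine h2 n hn M B (fun j hj => hM j (by simp [Nat.testBit_or, hj]))
      (fun j hj => hB j (by simp [Nat.testBit_or, hj])) b fun k hk hkb => ?_
    have : k = j := dec_inj (hkb.trans hjb.symm)
    subst this
    exact hb k (by simp [Nat.testBit_and, hj, hk]) hkb

theorem pat_node {d c g i m : ℕ} (h : Fam d c g i)
    (hi : Nat.land i (Nat.lor c (Nat.shiftLeft 1 m)) = i) :
    Pat (d + 1) (Nat.xor (Nat.lor c (Nat.shiftLeft 1 m)) (Nat.shiftLeft 1 m))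
      (Nat.lor g (Nat.shiftLeft 1 m)) := by
  have e1 : ∀ a b : ℕ, Nat.lor a b = a ||| b := fun _ _ => rfl
  have e2 : ∀ a b : ℕ, Nat.land a b = a &&& b := fun _ _ => rfl
  have e3 : ∀ a b : ℕ, Nat.xor a b = a ^^^ b := fun _ _ => rfl
  have e4 : Nat.shiftLeft 1 m = 2 ^ m := by
    show 1 <<< m = 2 ^ m
    rw [Nat.shiftLeft_eq, one_mul]
  rw [e4] at hi ⊢
  rw [e1, e2] at hi
  rw [e1, e1, e3]
  intro n hn M B hM hB
  obtain ⟨n, rfl⟩ : ∃ k, n = k + 1 := ⟨n - 1, by omega⟩
  have hmB : dec m ∉ B := hB m (by simp [Nat.testBit_or])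
  have key : ∀ x, dec m ∈ insert x M → ∀ b, b ∉ insert x M → b ∉ B →
      W n (insert x M) (insert b B) := by
    intro x hx b hb _
    have hsub : Sub (c ||| 2 ^ m) (insert x M) := by
      intro j hj
      by_cases hjm : j = m
      · subst hjm; exact hx
      · refine Finset.mem_insert_of_mem (hM j ?_)
        rw [Nat.testBit_xor, hj, Nat.testBit_two_pow_of_ne (Ne.symm hjm)]
        rfl
    refine h n (by omega) _ B (fun j hj => hsub j (by simp [Nat.testBit_or, hj]))
      (fun j hj => hB j (by simp [Nat.testBit_or, hj])) b fun j hj hjb => ?_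
    apply hb
    rw [← hjb]
    apply hsub
    rw [← hi, Nat.testBit_and] at hj
    exact (Bool.and_eq_true_iff.1 hj).2
  by_cases hm : dec m ∈ M
  · obtain ⟨x, hxM, hxB⟩ := exists_free M B
    exact ⟨x, hxM, hxB, key x (Finset.mem_insert_of_mem hm)⟩
  · exact ⟨dec m, hm, hmB, key _ (Finset.mem_insert_self _ _)⟩

/-- The eight orientations as bit masks anchored at the corner of the bounding box. -/
def mask (o : ℕ) : ℕ :=
  bif Nat.ble o 3 then
    bif Nat.ble o 1 then (bif Nat.beq o 0 then 2^0+2^1+2^2+2^3+2^28+2^29 else 2^25+2^26+2^27+2^28+2^3+2^4)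
    else (bif Nat.beq o 2 then 2^4+2^3+2^2+2^1+2^26+2^25 else 2^29+2^28+2^27+2^26+2^1+2^0)
  else
    bif Nat.ble o 5 then (bif Nat.beq o 4 then 2^0+2^25+2^50+2^75+2^76+2^101 else 2^100+2^75+2^50+2^25+2^26+2^1)
    else (bif Nat.beq o 6 then 2^1+2^26+2^51+2^76+2^75+2^100 else 2^101+2^76+2^51+2^26+2^25+2^0)

theorem pat_zero {o t : ℕ} (ht : t % 25 ≤ 20) :
    Pat 0 (Nat.shiftLeft (mask o) t) (Nat.shiftLeft (mask o) t) := by
  intro n _ M B hM _
  apply W_of_copy
  have hb : ∀ a b : ℕ, a ≤ 4 → (mask o).testBit (a + 25 * b) = true →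
      ((dec t).1 + a, (dec t).2 + b) ∈ (↑M : Set Cell) := by
    intro a b ha h
    have h1 : (Nat.shiftLeft (mask o) t).testBit (t + (a + 25 * b)) = true := by
      show ((mask o) <<< t).testBit _ = true
      rw [Nat.testBit_shiftLeft]
      simp [h]
    have h2 := hM _ h1
    have h3 : dec (t + (a + 25 * b)) = ((dec t).1 + a, (dec t).2 + b) := by
      simp only [dec, Prod.mk.injEq]
      constructor <;> omega
    rw [h3] at h2
    exact h2
  generalize dec t = z at hb
  obtain ⟨x, y⟩ := z
  simp only at hb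
  have ho : mask o = mask 0 ∨ mask o = mask 1 ∨ mask o = mask 2 ∨ mask o = mask 3 ∨
      mask o = mask 4 ∨ mask o = mask 5 ∨ mask o = mask 6 ∨ mask o = mask 7 := by
    match o with
    | 0 | 1 | 2 | 3 | 4 | 5 | 6 => simp
    | o + 7 => simp [mask, Nat.ble, Nat.beq]
  have fin : ∀ (t : Cell) (e1 e2 : ℤ), (e1 = 1 ∨ e1 = -1) → (e2 = 1 ∨ e2 = -1) →
      ((∀ p ∈ snaky, (t.1 + e1 * p.1, t.2 + e2 * p.2) ∈ (↑M : Set Cell)) ∨
      (∀ p ∈ snaky, (t.1 + e1 * p.2, t.2 + e2 * p.1) ∈ (↑M : Set Cell))) →
      ContainsCopy (↑M : Set Cell) := fun t e1 e2 h1 h2 h3 => ⟨t, e1, e2, h1, h2, h3⟩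
  rcases ho with ho | ho | ho | ho | ho | ho | ho | ho <;> rw [ho] at hb
  · refine fin (x, y) 1 1 (by simp) (by simp) (Or.inl ?_)
    simp only [snaky, Finset.mem_insert, Finset.mem_singleton]
    rintro p (rfl | rfl | rfl | rfl | rfl | rfl)
    · convert hb 0 0 (by norm_num) (by decide) using 2 <;> simp
    · convert hb 1 0 (by norm_num) (by decide) using 2 <;> simp
    · convert hb 2 0 (by norm_num) (by decide) using 2 <;> simp
    · convert hb 3 0 (by norm_num) (by decide) using 2 <;> simp
    · convert hb 3 1 (by norm_num) (by decide) using 2 <;> simp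
    · convert hb 4 1 (by norm_num) (by decide) using 2 <;> simp
  · refine fin (x, y + 1) 1 (-1) (by simp) (by simp) (Or.inl ?_)
    simp only [snaky, Finset.mem_insert, Finset.mem_singleton]
    rintro p (rfl | rfl | rfl | rfl | rfl | rfl)
    · convert hb 0 1 (by norm_num) (by decide) using 2 <;> simp
    · convert hb 1 1 (by norm_num) (by decide) using 2 <;> simp
    · convert hb 2 1 (by norm_num) (by decide) using 2 <;> simp
    · convert hb 3 1 (by norm_num) (by decide) using 2 <;> simp
    · convert hb 3 0 (by norm_num) (by decide) using 2 <;> simp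
    · convert hb 4 0 (by norm_num) (by decide) using 2 <;> simp
  · refine fin (x + 4, y) (-1) 1 (by simp) (by simp) (Or.inl ?_)
    simp only [snaky, Finset.mem_insert, Finset.mem_singleton]
    rintro p (rfl | rfl | rfl | rfl | rfl | rfl)
    · convert hb 4 0 (by norm_num) (by decide) using 2 <;> simp
    · convert hb 3 0 (by norm_num) (by decide) using 2 <;> simp <;> ring
    · convert hb 2 0 (by norm_num) (by decide) using 2 <;> simp <;> ring
    · convert hb 1 0 (by norm_num) (by decide) using 2 <;> simp <;> ring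
    · convert hb 1 1 (by norm_num) (by decide) using 2 <;> simp <;> ring
    · convert hb 0 1 (by norm_num) (by decide) using 2 <;> simp
  · refine fin (x + 4, y + 1) (-1) (-1) (by simp) (by simp) (Or.inl ?_)
    simp only [snaky, Finset.mem_insert, Finset.mem_singleton]
    rintro p (rfl | rfl | rfl | rfl | rfl | rfl)
    · convert hb 4 1 (by norm_num) (by decide) using 2 <;> simp
    · convert hb 3 1 (by norm_num) (by decide) using 2 <;> simp <;> ring
    · convert hb 2 1 (by norm_num) (by decide) using 2 <;> simp <;> ring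
    · convert hb 1 1 (by norm_num) (by decide) using 2 <;> simp <;> ring
    · convert hb 1 0 (by norm_num) (by decide) using 2 <;> simp <;> ring
    · convert hb 0 0 (by norm_num) (by decide) using 2 <;> simp
  · refine fin (x, y) 1 1 (by simp) (by simp) (Or.inr ?_)
    simp only [snaky, Finset.mem_insert, Finset.mem_singleton]
    rintro p (rfl | rfl | rfl | rfl | rfl | rfl)
    · convert hb 0 0 (by norm_num) (by decide) using 2 <;> simp
    · convert hb 0 1 (by norm_num) (by decide) using 2 <;> simp
    · convert hb 0 2 (by norm_num) (by decide) using 2 <;> simp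
    · convert hb 0 3 (by norm_num) (by decide) using 2 <;> simp
    · convert hb 1 3 (by norm_num) (by decide) using 2 <;> simp
    · convert hb 1 4 (by norm_num) (by decide) using 2 <;> simp
  · refine fin (x, y + 4) 1 (-1) (by simp) (by simp) (Or.inr ?_)
    simp only [snaky, Finset.mem_insert, Finset.mem_singleton]
    rintro p (rfl | rfl | rfl | rfl | rfl | rfl)
    · convert hb 0 4 (by norm_num) (by decide) using 2 <;> simp
    · convert hb 0 3 (by norm_num) (by decide) using 2 <;> simp <;> ring
    · convert hb 0 2 (by norm_num) (by decide) using 2 <;> simp <;> ring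
    · convert hb 0 1 (by norm_num) (by decide) using 2 <;> simp <;> ring
    · convert hb 1 1 (by norm_num) (by decide) using 2 <;> simp <;> ring
    · convert hb 1 0 (by norm_num) (by decide) using 2 <;> simp
  · refine fin (x + 1, y) (-1) 1 (by simp) (by simp) (Or.inr ?_)
    simp only [snaky, Finset.mem_insert, Finset.mem_singleton]
    rintro p (rfl | rfl | rfl | rfl | rfl | rfl)
    · convert hb 1 0 (by norm_num) (by decide) using 2 <;> simp
    · convert hb 1 1 (by norm_num) (by decide) using 2 <;> simp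
    · convert hb 1 2 (by norm_num) (by decide) using 2 <;> simp
    · convert hb 1 3 (by norm_num) (by decide) using 2 <;> simp
    · convert hb 0 3 (by norm_num) (by decide) using 2 <;> simp
    · convert hb 0 4 (by norm_num) (by decide) using 2 <;> simp
  · refine fin (x + 1, y + 4) (-1) (-1) (by simp) (by simp) (Or.inr ?_)
    simp only [snaky, Finset.mem_insert, Finset.mem_singleton]
    rintro p (rfl | rfl | rfl | rfl | rfl | rfl)
    · convert hb 1 4 (by norm_num) (by decide) using 2 <;> simp
    · convert hb 1 3 (by norm_num) (by decide) using 2 <;> simp <;> ring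
    · convert hb 1 2 (by norm_num) (by decide) using 2 <;> simp <;> ring
    · convert hb 1 1 (by norm_num) (by decide) using 2 <;> simp <;> ring
    · convert hb 0 1 (by norm_num) (by decide) using 2 <;> simp <;> ring
    · convert hb 0 0 (by norm_num) (by decide) using 2 <;> simp

/-- Strategy certificates. -/
inductive T
  | leaf (o t e : ℕ) : T
  | node (m : ℕ) (ch : T) : T
  | both (a b : T) : T
  | ref (k : ℕ) : T

/-- Lists of already established facts. -/
inductive Env
  | nil : Env
  | cons (d c g : ℕ) (tl : Env) : Env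

structure R where
  ok : Bool
  c : ℕ
  g : ℕ
  i : ℕ

/-- Look up entry `k` with depth budget `d`. -/
noncomputable def look (env : Env) : ℕ → ℕ → R :=
  Env.rec (motive := fun _ => ℕ → ℕ → R)
    (fun _ _ => ⟨false, 0, 0, 0⟩)
    (fun d' c g _ ih k d => bif Nat.beq k 0 then ⟨Nat.ble d' d, c, g, g⟩ else ih (Nat.sub k 1) d)
    env

/-- Evaluate a certificate with depth budget `d`; `ref` leaves cite entries of `env`. -/
noncomputable def ev (env : Env) (t : T) : ℕ → R :=
  T.rec (motive := fun _ => ℕ → R)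
    (fun o t e d =>
      ⟨Nat.ble 1 d && Nat.ble (Nat.mod t 25) 20,
        Nat.xor (Nat.lor (Nat.shiftLeft (mask o) t) (Nat.shiftLeft 1 e)) (Nat.shiftLeft 1 e),
        Nat.lor (Nat.shiftLeft (mask o) t) (Nat.shiftLeft 1 e),
        Nat.lor (Nat.shiftLeft (mask o) t) (Nat.shiftLeft 1 e)⟩)
    (fun m _ ih d =>
      R.rec (motive := fun _ => R) (fun ok c g i =>
        ⟨ok && Nat.ble 1 d && Nat.beq (Nat.land i (Nat.lor c (Nat.shiftLeft 1 m))) i,
          Nat.xor (Nat.lor c (Nat.shiftLeft 1 m)) (Nat.shiftLeft 1 m),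
          Nat.lor g (Nat.shiftLeft 1 m), Nat.lor g (Nat.shiftLeft 1 m)⟩) (ih (Nat.sub d 1)))
    (fun _ _ iha ihb d =>
      R.rec (motive := fun _ => R) (fun ok1 c1 g1 i1 =>
        R.rec (motive := fun _ => R) (fun ok2 c2 g2 i2 =>
          ⟨ok1 && ok2, Nat.lor c1 c2, Nat.lor g1 g2, Nat.land i1 i2⟩) (ihb d)) (iha d))
    (fun k d => look env k d)
    t

/-- The facts listed in an environment. -/
def EnvOK : Env → Prop
  | .nil => True
  | .cons d c g tl => Fam d c g g ∧ EnvOK tl

theorem envOK_nil : EnvOK .nil := trivial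

theorem envOK_cons {d c g : ℕ} {tl : Env} (h : Fam d c g g) (ht : EnvOK tl) :
    EnvOK (.cons d c g tl) := ⟨h, ht⟩

theorem fam_mono {d d' c g i : ℕ} (h : Fam d c g i) (hd : d ≤ d') : Fam d' c g i :=
  fun n hn => h n (hd.trans hn)

theorem look_sound : ∀ (env : Env) (k d : ℕ), EnvOK env → (look env k d).ok = true →
    Fam d (look env k d).c (look env k d).g (look env k d).i
  | .nil, _, _, _, h => by cases h
  | .cons d' c g tl, k, d, he, h => by
    have e : look (.cons d' c g tl) k d =
      bif Nat.beq k 0 then ⟨Nat.ble d' d, c, g, g⟩ else look tl (Nat.sub k 1) d := rfl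
    rw [e] at h ⊢
    cases hk : Nat.beq k 0
    · rw [hk] at h
      exact look_sound tl _ d he.2 h
    · rw [hk] at h
      have h' : Nat.ble d' d = true := h
      rw [Nat.ble_eq] at h'
      exact fam_mono he.1 h'

theorem ev_sound (env : Env) (he : EnvOK env) : ∀ (t : T) (d : ℕ), (ev env t d).ok = true →
    Fam d (ev env t d).c (ev env t d).g (ev env t d).i
  | .leaf o t e, d, h => by
    have h' : (Nat.ble 1 d && Nat.ble (Nat.mod t 25) 20) = true := h
    rw [Bool.and_eq_true, Nat.ble_eq, Nat.ble_eq] at h'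
    have h0 : Fam 0 _ _ _ := fam_of_pat (pat_zero (o := o) (t := t) h'.2)
    have h1 := pat_node (m := e) h0 (by
      show (Nat.shiftLeft (mask o) t) &&& ((Nat.shiftLeft (mask o) t) ||| (Nat.shiftLeft 1 e)) = _
      apply Nat.eq_of_testBit_eq
      intro j
      rw [Nat.testBit_and, Nat.testBit_or]
      cases (Nat.shiftLeft (mask o) t).testBit j <;> simp)
    exact fam_mono (fam_of_pat h1) h'.1
  | .node m ch, d, h => by
    have h' : ((ev env ch (d - 1)).ok && Nat.ble 1 d &&
      Nat.beq (Nat.land (ev env ch (d - 1)).i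
        (Nat.lor (ev env ch (d - 1)).c (Nat.shiftLeft 1 m))) (ev env ch (d - 1)).i) = true := h
    rw [Bool.and_eq_true, Bool.and_eq_true, Nat.ble_eq, Nat.beq_eq] at h'
    have h1 := pat_node (m := m) (ev_sound env he ch (d - 1) h'.1.1) h'.2
    have h2 : d - 1 + 1 = d := by omega
    rw [h2] at h1
    exact fam_of_pat h1
  | .both a b, d, h => by
    have h' : ((ev env a d).ok && (ev env b d).ok) = true := h
    rw [Bool.and_eq_true] at h'
    exact fam_both (ev_sound env he a d h'.1) (ev_sound env he b d h'.2)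
  | .ref k, d, h => look_sound env k d he h

/-- Check a certificate against claimed output values. -/
noncomputable def chk (env : Env) (t : T) (d c g i : ℕ) : Bool :=
  R.rec (motive := fun _ => Bool)
    (fun ok c' g' i' => ok && Nat.beq c' c && Nat.beq g' g && Nat.beq i' i) (ev env t d)

theorem chk_sound (env : Env) (t : T) {d c g i : ℕ} (he : EnvOK env)
    (h : chk env t d c g i = true) : Fam d c g i := by
  have h' : ((ev env t d).ok && Nat.beq (ev env t d).c c && Nat.beq (ev env t d).g g &&
    Nat.beq (ev env t d).i i) = true := h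
  simp only [Bool.and_eq_true, Nat.beq_eq] at h'
  obtain ⟨⟨⟨h1, rfl⟩, rfl⟩, rfl⟩ := h'
  exact ev_sound env he t d h1

end Crest.Agent.R35
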