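import Crest.Agent.R35.Game

/-! From the game predicate `W` to an explicit policy. -/

set_option autoImplicit false

namespace Crest.Agent.R35

open Crest.CombinatoricsR.PolyominoGame

open Classical in
/-- A winning move when there is one. -/
noncomputable def pick (n : ℕ) (M B : Finset Cell) : Cell :=
  if h : W (n + 1) M B then Classical.choose h else (0, 0)

theorem pick_spec {n : ℕ} {M B : Finset Cell} (h : W (n + 1) M B) :
    pick n M B ∉ M ∧ pick n M B ∉ B ∧ ∀ b, b ∉ insert (pick n M B) M → b ∉ B →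
      W n (insert (pick n M B) M) (insert b B) := by
  unfold pick
  rw [dif_pos h]
  exact Classical.choose_spec h

/-- Maker's cells after `k` claims. -/
noncomputable def Mk (b : ℕ → Cell) : ℕ → Finset Cell
  | 0 => ∅
  | k + 1 => insert (pick (20 - k) (Mk b k) ((Finset.range k).image b)) (Mk b k)

theorem Mk_congr (b b' : ℕ → Cell) : ∀ k, (∀ j < k, b j = b' j) → Mk b k = Mk b' k
  | 0, _ => rfl
  | k + 1, h => by
    have h1 := Mk_congr b b' k fun j hj => h j (by omega)
    have h2 : (Finset.range k).image b = (Finset.range k).image b' :=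
      Finset.image_congr fun j hj => h j (by
        have := Finset.mem_range.1 (Finset.mem_coe.1 hj); omega)
    simp only [Mk, h1, h2]

noncomputable def policy (l : List Cell) : Cell :=
  pick (20 - l.length) (Mk (fun i => l.getD i (0, 0)) l.length)
    ((Finset.range l.length).image fun i => l.getD i (0, 0))

theorem claim_eq (b : ℕ → Cell) (k : ℕ) :
    makerClaim policy b k = pick (20 - k) (Mk b k) ((Finset.range k).image b) := by
  have h : ∀ j < k, ((List.range k).map b).getD j (0, 0) = b j := by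
    intro j hj
    simp [List.getD, hj]
  unfold makerClaim policy
  simp only [List.length_map, List.length_range]
  rw [Mk_congr _ b k h]
  congr 1
  exact Finset.image_congr fun j hj => h j (Finset.mem_range.1 (Finset.mem_coe.1 hj))

theorem mem_Mk (b : ℕ → Cell) (x : Cell) :
    ∀ k, x ∈ Mk b k ↔ ∃ j < k, x = makerClaim policy b j
  | 0 => by simp [Mk]
  | k + 1 => by
    rw [Mk, Finset.mem_insert, mem_Mk b x k, ← claim_eq]
    constructor
    · rintro (h | ⟨j, hj, h⟩)
      · exact ⟨k, by omega, h⟩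
      · exact ⟨j, by omega, h⟩
    · rintro ⟨j, hj, h⟩
      rcases Nat.lt_succ_iff_lt_or_eq.1 hj with h' | rfl
      · exact Or.inr ⟨j, h', h⟩
      · exact Or.inl h

theorem invariant (h0 : W 21 ∅ ∅) (b : ℕ → Cell)
    (hb : ∀ k : ℕ, k < 20 → (∀ j : ℕ, j ≤ k → b k ≠ makerClaim policy b j) ∧
      (∀ j : ℕ, j < k → b k ≠ b j)) :
    ∀ k, k ≤ 20 → W (20 - k + 1) (Mk b k) ((Finset.range k).image b)
  | 0, _ => by simpa [Mk] using h0
  | k + 1, hk => by
    have ih := invariant h0 b hb k (by omega)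
    have h := (pick_spec ih).2.2 (b k) ?_ ?_
    · have e : 20 - (k + 1) + 1 = 20 - k := by omega
      rw [e, Finset.range_add_one, Finset.image_insert]
      exact h
    · intro hmem
      obtain ⟨j, hj, e⟩ := (mem_Mk b (b k) (k + 1)).1 hmem
      exact (hb k (by omega)).1 j (by omega) e
    · intro hmem
      obtain ⟨j, hj, e⟩ := Finset.mem_image.1 hmem
      exact (hb k (by omega)).2 j (Finset.mem_range.1 hj) e.symm

theorem main (h0 : W 21 ∅ ∅) :
    ∃ σ : List (ℤ × ℤ) → ℤ × ℤ, ∀ b : ℕ → ℤ × ℤ,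
      (∀ k : ℕ, k < 20 →
        (∀ j : ℕ, j ≤ k → b k ≠ makerClaim σ b j) ∧ (∀ j : ℕ, j < k → b k ≠ b j)) →
      (∀ k : ℕ, k ≤ 20 →
        (∀ j : ℕ, j < k → makerClaim σ b k ≠ makerClaim σ b j) ∧
        (∀ j : ℕ, j < k → makerClaim σ b k ≠ b j)) ∧
      ContainsCopy {c | ∃ j : ℕ, j ≤ 20 ∧ c = makerClaim σ b j} := by
  refine ⟨policy, fun b hb => ⟨fun k hk => ?_, ?_⟩⟩
  · have h := pick_spec (invariant h0 b hb k hk)
    rw [← claim_eq] at h
    refine ⟨fun j hj e => h.1 ((mem_Mk b _ k).2 ⟨j, hj, e⟩), fun j hj e => h.2.1 ?_⟩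
    exact Finset.mem_image.2 ⟨j, Finset.mem_range.2 hj, e.symm⟩
  · have h := pick_spec (invariant h0 b hb 20 le_rfl)
    obtain ⟨x, hx1, hx2⟩ := exists_free
      (insert (pick (20 - 20) (Mk b 20) ((Finset.range 20).image b)) (Mk b 20))
      ((Finset.range 20).image b)
    have h2 : ContainsCopy (↑(Mk b 21) : Set Cell) := h.2.2 x hx1 hx2
    refine containsCopy_mono ?_ h2
    intro c hc
    obtain ⟨j, hj, e⟩ := (mem_Mk b c 21).1 (Finset.mem_coe.1 hc)
    exact ⟨j, by omega, e⟩

end Crest.Agent.R35
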