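import Crest.Agent.R35.C8

/-! The top of the Snaky strategy: first claim at the origin, symmetry reduction. -/

set_option autoImplicit false
set_option maxRecDepth 100000

namespace Crest.Agent.R35

open Crest.CombinatoricsR.PolyominoGame

theorem root_fam : Fam 20 (2 ^ 312) 78770874760109475245337329799264013183024324591279353233239321562009013873190271558771103678328732348034840139884787713510767838319715884977372036664918016 30408575785813664629563189625229861436361990491846219427002763241157504351947599896560947261177426365724804252443110115639296 :=
  chk_sound (Env.cons 14 8343699359066055009355553539724812947666814540455674882605631280555545803830627148527195652096 40985471286457642212802233596654176634411566607807224401105219584487842952332126849474804166759006725103668904366956146065408 (Env.cons 14 8343699359066055009355553539724812947666814540455674882605631280555545803830627148527195652096 30408577046677900784437355829528729373675931528646981383864817828899374799617850425229313135970802594201411127196021608677376 (Env.cons 20 8343699359066055009355553539724812947666814540455674882605631280555545803830627148527195652096 8379880305850102236372750738238744597468322900575039578144993165799043697218053173268299862458808940193795309264325496830665274309404344283224178782371840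 (Env.cons 16 8343699359066055009355553539724812947666814540455674882605631280555545803830627148527195652096 243994964152272322773220568065456624229374439382658718464630451734295846817264127308596930507547105143806576919959510799693056573440 (Env.cons 16 8343699359066055009355553539724812947666814540455674882605631280555545803830627148527195652096 8379880330824008023503946889956349160283125391972046690039371336835163168754662815671446019538934037065817857280663667726305911427516460492918343151386624 (Env.cons 20 8343699359066055009355553539724812947666814540455674882605631280555545803830627148527195652096 29771315389304207464725481189242429530162591811899681237954682308173370099482274441644880062199809528579662600998009709272559119527567163392 (Env.cons 18 8343699359066055009355553539724812947666814540455674882605631280555545803830627148527195652096 70390994803895352058103564175385359353349720953409107372162078972284193222284285987162852792348497263692547770442625784084409234345372607394542758085525504 Env.nil)))))))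
    (T.both (T.both (T.both (T.both (T.both (T.both (T.ref 0) (T.ref 1)) (T.ref 2)) (T.ref 3)) (T.ref 4)) (T.ref 5)) (T.ref 6))
    (envOK_cons p909 (envOK_cons p1592 (envOK_cons p2539 (envOK_cons p3636 (envOK_cons p4903 (envOK_cons p7404 (envOK_cons p14721 envOK_nil))))))) (by decide +kernel)

theorem root_bits : ∀ j < 625, Nat.testBit 30408575785813664629563189625229861436361990491846219427002763241157504351947599896560947261177426365724804252443110115639296 j = true →
    j = 312 ∨ j / 25 < 12 ∨ j % 25 < j / 25 := by decide +kernel

theorem W_octant (b : Cell) (h0 : 0 ≤ b.2) (h1 : b.2 ≤ b.1) (hb : b ≠ (0, 0)) :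
    W 20 {(0, 0)} {b} := by
  have := root_fam 20 le_rfl {(0, 0)} ∅ ?_ ?_ b ?_
  · simpa using this
  · intro j hj
    have : j = 312 := by
      by_contra h
      rw [Nat.testBit_two_pow_of_ne (Ne.symm h)] at hj
      cases hj
    subst this
    simp [dec]
  · intro j _
    simp
  · intro j hj hjb
    have hlt : j < 625 := by
      by_contra h
      have h2 : (2 : ℕ) ^ 625 ≤ 2 ^ j := Nat.pow_le_pow_right (by norm_num) (by omega)
      have h3 : (30408575785813664629563189625229861436361990491846219427002763241157504351947599896560947261177426365724804252443110115639296 : ℕ) < 2 ^ 625 := by decide +kernel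
      rw [Nat.testBit_eq_false_of_lt (h3.trans_le h2)] at hj
      cases hj
    have h4 := root_bits j hlt hj
    subst hjb
    simp only [dec, ne_eq, Prod.mk.injEq] at h0 h1 hb
    omega

def negX : Cell ≃ Cell := ⟨fun p => (-p.1, p.2), fun p => (-p.1, p.2), by intro p; simp, by intro p; simp⟩
def negY : Cell ≃ Cell := ⟨fun p => (p.1, -p.2), fun p => (p.1, -p.2), by intro p; simp, by intro p; simp⟩

theorem copy_negX (X : Set Cell) (h : ContainsCopy X) : ContainsCopy (negX '' X) := by
  obtain ⟨t, e1, e2, h1, h2, h3⟩ := h
  refine ⟨(-t.1, t.2), -e1, e2, by omega, h2, ?_⟩
  rcases h3 with h3 | h3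
  · exact Or.inl fun p hp => ⟨_, h3 p hp, by simp [negX]; ring⟩
  · exact Or.inr fun p hp => ⟨_, h3 p hp, by simp [negX]; ring⟩

theorem copy_negY (X : Set Cell) (h : ContainsCopy X) : ContainsCopy (negY '' X) := by
  obtain ⟨t, e1, e2, h1, h2, h3⟩ := h
  refine ⟨(t.1, -t.2), e1, -e2, h1, by omega, ?_⟩
  rcases h3 with h3 | h3
  · exact Or.inl fun p hp => ⟨_, h3 p hp, by simp [negY]; ring⟩
  · exact Or.inr fun p hp => ⟨_, h3 p hp, by simp [negY]; ring⟩

theorem copy_swap (X : Set Cell) (h : ContainsCopy X) :
    ContainsCopy ((Equiv.prodComm ℤ ℤ) '' X) := by
  obtain ⟨t, e1, e2, h1, h2, h3⟩ := h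
  refine ⟨(t.2, t.1), e2, e1, h2, h1, ?_⟩
  rcases h3 with h3 | h3
  · exact Or.inr fun p hp => ⟨_, h3 p hp, by simp⟩
  · exact Or.inl fun p hp => ⟨_, h3 p hp, by simp⟩

theorem W_quadrant (b : Cell) (h0 : 0 ≤ b.1) (h1 : 0 ≤ b.2) (hb : b ≠ (0, 0)) :
    W 20 {(0, 0)} {b} := by
  rcases le_total b.2 b.1 with h | h
  · exact W_octant b h1 h hb
  · have := W_map (Equiv.prodComm ℤ ℤ) copy_swap 20 _ _
      (W_octant (b.2, b.1) h0 h (fun e => hb (by
        simp only [Prod.mk.injEq] at e
        exact Prod.ext e.2 e.1)))
    simpa using this

theorem W_half (b : Cell) (h0 : 0 ≤ b.1) (hb : b ≠ (0, 0)) : W 20 {(0, 0)} {b} := by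
  rcases le_total 0 b.2 with h | h
  · exact W_quadrant b h0 h hb
  · have := W_map negY copy_negY 20 _ _
      (W_quadrant (b.1, -b.2) h0 (by simpa using h) (fun e => hb (by
        simp only [Prod.mk.injEq, neg_eq_zero] at e
        exact Prod.ext e.1 e.2)))
    simpa [negY] using this

theorem W_all (b : Cell) (hb : b ≠ (0, 0)) : W 20 {(0, 0)} {b} := by
  rcases le_total 0 b.1 with h | h
  · exact W_half b h hb
  · have := W_map negX copy_negX 20 _ _
      (W_half (-b.1, b.2) (by simpa using h) (fun e => hb (by
        simp only [Prod.mk.injEq, neg_eq_zero] at e
        exact Prod.ext e.1 e.2)))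
    simpa [negX] using this

theorem W_start : W 21 ∅ ∅ := by
  refine ⟨(0, 0), by simp, by simp, fun b hb _ => ?_⟩
  have := W_all b (by simpa using hb)
  simpa using this

end Crest.Agent.R35
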